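import Vale.Agent.Lib.P062.Strip5

/-!
P062: on the infinite strip of height five, Maker has no winning strategy in the Snaky
achievement game (Breaker wins by an explicit pairing strategy of period six).
-/

open Vale.Agent.Lib.P062 in
theorem Vale.Agent.Results.P062.Strip5.result : ¬ MakerWins (strip 5) copies ∅ ∅ :=
  strip5
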